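import Vale.Agent.P070.Defs
import Vale.Agent.P070.Final

universe u v w

theorem Vale.Agent.Results.P070.A_full.result :
    ∃ (A : Type) (_ : NonUnitalCStarAlgebra A), Vale.Agent.P070.PropertyN.{u, v} A ∧
      ∀ (H : Type w) [NormedAddCommGroup H] [InnerProductSpace ℂ H] [CompleteSpace H],
        ¬ Vale.Agent.P070.IsoCompacts A H := by
  obtain ⟨A, _, h1, h2, h3⟩ := Vale.Agent.P070.naimark.{u, v, w}
  exact ⟨A, inferInstance, ⟨h1, h2⟩, h3⟩
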